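import Vale.Agent.P233.H103.Heat

/-! P242, F-GRAD: reverse Poincaré inequality (G2) and local Poincaré inequality (G3) for the heat
semigroup, pointwise almost everywhere and in weak form. -/

open MeasureTheory Filter Topology
open scoped ENNReal NNReal InnerProductSpace

namespace Vale.Agent.P242.H881

open Vale.Agent.P233

variable {M : Type*} [MeasurableSpace M] {m : Measure M} {C : Calc m}
variable {κ t s : ℝ} {f g ψ σ : M →ₘ[m] ℝ}

lemma exp_aux (ht : 0 ≤ t) (hs0 : 0 ≤ s) (hst : s ≤ t) :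
    Real.exp (-(2 * κ * s)) ≤ Real.exp (2 * |κ| * t) := by
  apply Real.exp_le_exp.2
  have h1 : -κ ≤ |κ| := neg_le_abs κ
  have h2 : 0 ≤ |κ| := abs_nonneg κ
  have h3 : -κ * s ≤ |κ| * t := (mul_le_mul_of_nonneg_right h1 hs0).trans
    (mul_le_mul_of_nonneg_left hst h2)
  linarith

/-- `f² ∈ L²` for `f ∈ L² ∩ L^∞` -/
lemma sq_mem2 (hf : MemLp f 2 m) (hft : MemLp f ∞ m) : MemLp (f ^ 2 : M →ₘ[m] ℝ) 2 m := by
  rw [sq]; exact mem_mul_top hft hf

/-- (G2), weak form -/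
theorem reverse_poincare_weak (hC : IsGamma C) (hB : C.BEi κ) (ht : 0 < t)
    (hf : MemLp f 2 m) (hft : MemLp f ∞ m) (h0 : 0 ≤ ψ) (h2 : MemLp ψ 2 m)
    (htop : MemLp ψ ∞ m) :
    2 * t * Real.exp (-(2 * |κ| * t)) * I (ψ * C.Γ (C.P t f) (C.P t f))
      ≤ I (ψ * (C.P t (f ^ 2) - C.P t f ^ 2)) := by
  have hD := hC.toIsDir
  have hPW := hD.P_mem ht hf
  set A := I (ψ * C.Γ (C.P t f) (C.P t f)) with hA
  have hA0 : 0 ≤ A := I_nonneg (mul_nonneg h0 (hC.nonneg _ hPW))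
  have hder : ∀ s ∈ Set.Ioo 0 t, 2 * Real.exp (-(2 * |κ| * t)) * A
      ≤ 2 * I (C.P s ψ * C.Γ (C.P (t - s) f) (C.P (t - s) f)) := by
    intro s hs
    have hts : 0 < t - s := by linarith [hs.2]
    have e1 : C.P t f = C.P s (C.P (t - s) f) := by
      rw [hD.P_P hs.1.le hts.le hf]; congr 1; ring
    have h3 := IsGamma.P_gradW hC hB hs.1.le (hD.P_mem hts hf) h0 h2 htop
    rw [← e1] at h3
    set D := I (C.P s ψ * C.Γ (C.P (t - s) f) (C.P (t - s) f)) with hDdef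
    have hD0 : 0 ≤ D := I_nonneg (mul_nonneg (hD.P_nonneg hs.1.le h2 h0)
      (hC.nonneg _ (hD.P_mem hts hf)))
    have h4 := exp_aux (κ := κ) ht.le hs.1.le hs.2.le
    have h5 : A ≤ Real.exp (2 * |κ| * t) * D := h3.trans (mul_le_mul_of_nonneg_right h4 hD0)
    have h6 : Real.exp (-(2 * |κ| * t)) * A ≤ D := by
      calc Real.exp (-(2 * |κ| * t)) * A
          ≤ Real.exp (-(2 * |κ| * t)) * (Real.exp (2 * |κ| * t) * D) :=
            mul_le_mul_of_nonneg_left h5 (Real.exp_pos _).le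
        _ = (Real.exp (-(2 * |κ| * t)) * Real.exp (2 * |κ| * t)) * D := by ring
        _ = D := by rw [← Real.exp_add]; simp
    linarith
  have hmv := Convex.mul_sub_le_image_sub_of_le_deriv (convex_Icc 0 t)
    (f := fun s => I (C.P s ψ * C.P (t - s) f ^ 2))
    (hD.continuous_PP h2 hf hft).continuousOn
    (fun s hs => by
      rw [interior_Icc] at hs
      exact (hD.hasDeriv_PP h2 htop hf hft hs.1 hs.2).differentiableAt.differentiableWithinAt)
    (C := 2 * Real.exp (-(2 * |κ| * t)) * A)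
    (fun s hs => by
      rw [interior_Icc] at hs
      rw [(hD.hasDeriv_PP h2 htop hf hft hs.1 hs.2).deriv]
      exact hder s hs) 0 (Set.left_mem_Icc.2 ht.le) t (Set.right_mem_Icc.2 ht.le) ht.le
  simp only [sub_self, sub_zero] at hmv
  rw [hD.P_zero_time hf, hD.P_zero_time h2] at hmv
  have h7 : I (C.P t ψ * f ^ 2) = I (ψ * C.P t (f ^ 2)) := hD.P_symm t h2 (sq_mem2 hf hft)
  have hPf2 : MemLp (C.P t f ^ 2 : M →ₘ[m] ℝ) 2 m :=
    sq_mem2 (hD.P_mem2 t hf) (hD.P_memTop ht.le hf hft)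
  rw [mul_sub, I_sub (mem_mul_22 h2 (hD.P_mem2 t (sq_mem2 hf hft))) (mem_mul_22 h2 hPf2), ← h7]
  linarith

/-- (G2) reverse Poincaré inequality -/
theorem reverse_poincare (hC : IsGamma C) (hB : C.BEi κ) (ht : 0 < t)
    (hf : MemLp f 2 m) (hft : MemLp f ∞ m) :
    ∀ᵐ x ∂m, 2 * t * Real.exp (-(2 * |κ| * t)) * C.Γ (C.P t f) (C.P t f) x
      ≤ C.P t (f ^ 2) x - C.P t f x ^ 2 := by
  have hD := hC.toIsDir
  have hPW := hD.P_mem ht hf
  set c : ℝ := 2 * t * Real.exp (-(2 * |κ| * t)) with hc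
  have m1 : MemLp (C.Γ (C.P t f) (C.P t f)) 1 m := hC.mem1 _ hPW
  have m2 : MemLp (C.P t (f ^ 2)) 1 m := (hD.P_L1 ht.le (sq_mem2 hf hft) (mem_sq hf)).1
  have m3 : MemLp (C.P t f ^ 2 : M →ₘ[m] ℝ) 1 m := mem_sq (hD.P_mem2 t hf)
  have m4 := mem_sub m2 m3
  have key := le_const_of_forall (F := c • C.Γ (C.P t f) (C.P t f)
    - (C.P t (f ^ 2) - C.P t f ^ 2)) (mem_sub (mem_smul c m1) m4) le_rfl (by
    intro ψ h0 h2 h1 htop
    have h := reverse_poincare_weak hC hB ht hf hft h0 h2 htop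
    rw [zero_mul, sub_mul, I_sub (by
        have := mem_mul_top htop (mem_smul c m1)
        rwa [mul_comm] at this) (by
        have := mem_mul_top htop m4
        rwa [mul_comm] at this), smul_mul_assoc, I_smul,
      mul_comm (C.Γ (C.P t f) (C.P t f)) ψ, mul_comm _ ψ]
    linarith)
  filter_upwards [key, sub_ae (c • C.Γ (C.P t f) (C.P t f)) (C.P t (f ^ 2) - C.P t f ^ 2),
    sub_ae (C.P t (f ^ 2)) (C.P t f ^ 2), smul_ae (C.Γ (C.P t f) (C.P t f)) c, sq_ae (C.P t f)]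
    with x a1 a2 a3 a4 a5
  rw [a2, a3, a4, a5] at a1
  linarith

/-- (G3) local Poincaré inequality, weak form -/
theorem local_poincare_weak (hC : IsGamma C) (hB : C.BEi κ) (ht : 0 < t)
    (hf : f ∈ C.W) (hft : MemLp f ∞ m) (h0 : 0 ≤ ψ) (h2 : MemLp ψ 2 m)
    (htop : MemLp ψ ∞ m) :
    I (ψ * (C.P t (f ^ 2) - C.P t f ^ 2))
      ≤ 2 * t * Real.exp (2 * |κ| * t) * I (C.P t ψ * C.Γ f f) := by
  have hD := hC.toIsDir
  have hf2 : MemLp f 2 m := hC.memLp _ hf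
  set A := I (C.P t ψ * C.Γ f f) with hA
  have hA0 : 0 ≤ A := I_nonneg (mul_nonneg (hD.P_nonneg ht.le h2 h0) (hC.nonneg _ hf))
  have hder : ∀ s ∈ Set.Ioo 0 t, 2 * I (C.P s ψ * C.Γ (C.P (t - s) f) (C.P (t - s) f))
      ≤ 2 * Real.exp (2 * |κ| * t) * A := by
    intro s hs
    have hts : 0 < t - s := by linarith [hs.2]
    have h3 := IsGamma.P_gradW hC hB hts.le hf (hD.P_nonneg hs.1.le h2 h0)
      (hD.P_mem2 s h2) (hD.P_memTop hs.1.le h2 htop)
    have e1 : C.P (t - s) (C.P s ψ) = C.P t ψ := by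
      rw [hD.P_P hts.le hs.1.le h2]; congr 1; ring
    rw [e1] at h3
    have h4 := exp_aux (κ := κ) ht.le hts.le (by linarith [hs.1] : t - s ≤ t)
    have h5 := h3.trans (mul_le_mul_of_nonneg_right h4 hA0)
    linarith
  have hmv := Convex.image_sub_le_mul_sub_of_deriv_le (convex_Icc 0 t)
    (f := fun s => I (C.P s ψ * C.P (t - s) f ^ 2))
    (hD.continuous_PP h2 hf2 hft).continuousOn
    (fun s hs => by
      rw [interior_Icc] at hs
      exact (hD.hasDeriv_PP h2 htop hf2 hft hs.1 hs.2).differentiableAt.differentiableWithinAt)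
    (C := 2 * Real.exp (2 * |κ| * t) * A)
    (fun s hs => by
      rw [interior_Icc] at hs
      rw [(hD.hasDeriv_PP h2 htop hf2 hft hs.1 hs.2).deriv]
      exact hder s hs) 0 (Set.left_mem_Icc.2 ht.le) t (Set.right_mem_Icc.2 ht.le) ht.le
  simp only [sub_self, sub_zero] at hmv
  rw [hD.P_zero_time hf2, hD.P_zero_time h2] at hmv
  have h7 : I (C.P t ψ * f ^ 2) = I (ψ * C.P t (f ^ 2)) := hD.P_symm t h2 (sq_mem2 hf2 hft)
  have hPf2 : MemLp (C.P t f ^ 2 : M →ₘ[m] ℝ) 2 m :=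
    sq_mem2 (hD.P_mem2 t hf2) (hD.P_memTop ht.le hf2 hft)
  rw [mul_sub, I_sub (mem_mul_22 h2 (hD.P_mem2 t (sq_mem2 hf2 hft))) (mem_mul_22 h2 hPf2), ← h7]
  linarith

/-- (G3) local Poincaré inequality -/
theorem local_poincare (hC : IsGamma C) (hB : C.BEi κ) (ht : 0 < t)
    (hf : f ∈ C.W) (hft : MemLp f ∞ m) (hΓ : MemLp (C.Γ f f) 2 m) :
    ∀ᵐ x ∂m, C.P t (f ^ 2) x - C.P t f x ^ 2
      ≤ 2 * t * Real.exp (2 * |κ| * t) * C.P t (C.Γ f f) x := by
  have hD := hC.toIsDir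
  have hf2 : MemLp f 2 m := hC.memLp _ hf
  set c : ℝ := 2 * t * Real.exp (2 * |κ| * t) with hc
  have m1 : MemLp (C.P t (C.Γ f f)) 1 m := (hD.P_L1 ht.le hΓ (hC.mem1 _ hf)).1
  have m2 : MemLp (C.P t (f ^ 2)) 1 m := (hD.P_L1 ht.le (sq_mem2 hf2 hft) (mem_sq hf2)).1
  have m3 : MemLp (C.P t f ^ 2 : M →ₘ[m] ℝ) 1 m := mem_sq (hD.P_mem2 t hf2)
  have m4 := mem_sub m2 m3
  have key := le_const_of_forall (F := (C.P t (f ^ 2) - C.P t f ^ 2)
    - c • C.P t (C.Γ f f)) (mem_sub m4 (mem_smul c m1)) le_rfl (by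
    intro ψ h0 h2 h1 htop
    have h := local_poincare_weak hC hB ht hf hft h0 h2 htop
    rw [hD.P_symm t h2 hΓ] at h
    rw [zero_mul, sub_mul, I_sub (by
        have := mem_mul_top htop m4
        rwa [mul_comm] at this) (by
        have := mem_mul_top htop (mem_smul c m1)
        rwa [mul_comm] at this), smul_mul_assoc, I_smul,
      mul_comm (C.P t (C.Γ f f)) ψ, mul_comm _ ψ]
    linarith)
  filter_upwards [key, sub_ae (C.P t (f ^ 2) - C.P t f ^ 2) (c • C.P t (C.Γ f f)),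
    sub_ae (C.P t (f ^ 2)) (C.P t f ^ 2), smul_ae (C.P t (C.Γ f f)) c, sq_ae (C.P t f)]
    with x a1 a2 a3 a4 a5
  rw [a2, a3, a4, a5] at a1
  linarith

end Vale.Agent.P242.H881
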