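import Mathlib

/-! P242, F-GRAD: the Gaussian Lipschitz bound of the heat kernel (LIP) from the Gaussian upper bound
(UP) and Hamilton's estimate `√(log (B / P_s F))` is `c/√s`-Lipschitz for `0 ≤ F ≤ B`. -/

open Real

namespace Vale.Agent.P242.H881

/-- `2 ξ e^{-ξ²/2} ≤ 2` -/
lemma two_mul_exp_le {ξ : ℝ} : ξ * exp (-(ξ ^ 2 / 2)) ≤ 1 := by
  rcases le_or_gt ξ 0 with h | h
  · exact (mul_nonpos_of_nonpos_of_nonneg h (exp_pos _).le).trans zero_le_one
  · have h1 : ξ ≤ exp (ξ ^ 2 / 2) := by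
      have := add_one_le_exp (ξ ^ 2 / 2)
      nlinarith [sq_nonneg (ξ - 1)]
    calc ξ * exp (-(ξ ^ 2 / 2)) ≤ exp (ξ ^ 2 / 2) * exp (-(ξ ^ 2 / 2)) :=
          mul_le_mul_of_nonneg_right h1 (exp_pos _).le
      _ = 1 := by rw [← exp_add]; simp

/-- the function `e^{-w²}` -/
lemma exp_sq_sub_le {a b : ℝ} (ha : 0 ≤ a) (hab : a ≤ b) :
    exp (-a ^ 2) - exp (-b ^ 2) ≤ 2 * (b - a) * exp (-(a ^ 2 / 2)) := by
  have hd : ∀ x : ℝ, HasDerivAt (fun w : ℝ => exp (-w ^ 2)) (exp (-x ^ 2) * (-(2 * x))) x := by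
    intro x
    have h1 : HasDerivAt (fun w : ℝ => -w ^ 2) (-(2 * x)) x := by
      have := (hasDerivAt_pow 2 x).fun_neg
      simpa using this
    exact h1.exp
  have h := Convex.norm_image_sub_le_of_norm_hasDerivWithin_le (f := fun w : ℝ => exp (-w ^ 2))
    (s := Set.Icc a b) (C := 2 * exp (-(a ^ 2 / 2)))
    (fun x _ => (hd x).hasDerivWithinAt) (fun x hx => by
      have hx0 : 0 ≤ x := ha.trans hx.1
      rw [norm_mul, norm_neg, norm_mul, norm_of_nonneg (exp_pos _).le, norm_of_nonneg hx0]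
      have e1 : exp (-x ^ 2) = exp (-(x ^ 2 / 2)) * exp (-(x ^ 2 / 2)) := by
        rw [← exp_add]; congr 1; ring
      have h2 : exp (-(x ^ 2 / 2)) ≤ exp (-(a ^ 2 / 2)) := by
        apply exp_le_exp.2
        have := hx.1
        nlinarith
      have h3 := two_mul_exp_le (ξ := x)
      have h4 : ‖(2 : ℝ)‖ = 2 := by norm_num
      rw [h4, e1]
      calc exp (-(x ^ 2 / 2)) * exp (-(x ^ 2 / 2)) * (2 * x)
          = 2 * (x * exp (-(x ^ 2 / 2))) * exp (-(x ^ 2 / 2)) := by ring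
        _ ≤ 2 * 1 * exp (-(a ^ 2 / 2)) := by gcongr
        _ = 2 * exp (-(a ^ 2 / 2)) := by ring) (convex_Icc a b)
    (Set.left_mem_Icc.2 hab) (Set.right_mem_Icc.2 hab)
  rw [norm_of_nonneg (sub_nonneg.2 hab), norm_sub_rev] at h
  have := (le_abs_self _).trans h
  linarith

/-- two-point form of `|∇u| ≤ C √(B u)` -/
lemma sub_le_of_sqrt_log {u v B δ : ℝ} (hu : 0 < u) (hv : 0 < v) (huB : u ≤ B) (hvB : v ≤ B)
    (h : |√(log (B / u)) - √(log (B / v))| ≤ δ) :
    |u - v| ≤ 2 * δ * √(B * max u v) := by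
  -- symmetric: assume `v ≤ u`
  have key : ∀ u v : ℝ, 0 < u → 0 < v → u ≤ B → v ≤ B →
      |√(log (B / u)) - √(log (B / v))| ≤ δ → v ≤ u → |u - v| ≤ 2 * δ * √(B * max u v) := by
    intro u v hu hv huB hvB h hvu
    have hB : 0 < B := hu.trans_le huB
    set a := √(log (B / u)) with ha
    set b := √(log (B / v)) with hb
    have la : 0 ≤ log (B / u) := log_nonneg ((one_le_div hu).2 huB)
    have lb : 0 ≤ log (B / v) := log_nonneg ((one_le_div hv).2 hvB)
    have ha2 : a ^ 2 = log (B / u) := sq_sqrt la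
    have hb2 : b ^ 2 = log (B / v) := sq_sqrt lb
    have ea : u = B * exp (-a ^ 2) := by
      rw [ha2, ← log_inv, exp_log (by positivity), inv_div]
      field_simp
    have eb : v = B * exp (-b ^ 2) := by
      rw [hb2, ← log_inv, exp_log (by positivity), inv_div]
      field_simp
    have hab : a ≤ b := by
      apply sqrt_le_sqrt
      apply log_le_log (by positivity)
      gcongr
    have h1 := exp_sq_sub_le (sqrt_nonneg _ : 0 ≤ a) hab
    rw [max_eq_left hvu, abs_of_nonneg (sub_nonneg.2 hvu)]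
    have hba : b - a ≤ δ := by
      rw [abs_sub_comm, abs_of_nonneg (sub_nonneg.2 hab)] at h
      exact h
    have e3 : √(B * u) = B * exp (-(a ^ 2 / 2)) := by
      have e4 : B * u = (B * exp (-(a ^ 2 / 2))) ^ 2 := by
        have e5 : exp (-a ^ 2) = exp (-(a ^ 2 / 2)) ^ 2 := by
          rw [← exp_nat_mul]; congr 1; push_cast; ring
        calc B * u = B * (B * exp (-a ^ 2)) := by rw [← ea]
          _ = _ := by rw [e5]; ring
      rw [e4, sqrt_sq (by positivity)]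
    calc u - v = B * (exp (-a ^ 2) - exp (-b ^ 2)) := by rw [mul_sub, ← ea, ← eb]
      _ ≤ B * (2 * (b - a) * exp (-(a ^ 2 / 2))) := mul_le_mul_of_nonneg_left h1 hB.le
      _ ≤ B * (2 * δ * exp (-(a ^ 2 / 2))) := by gcongr
      _ = 2 * δ * √(B * u) := by rw [e3]; ring
  rcases le_total v u with hvu | huv
  · exact key u v hu hv huB hvB h hvu
  · rw [abs_sub_comm, max_comm]
    exact key v u hv hu hvB huB (by rwa [abs_sub_comm]) huv

/-- the factor in front: square root part -/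
lemma sqrt_part {K T e g m : ℝ} (hK : 0 ≤ K) (hT : 1 ≤ T) (he : 1 ≤ e) (hg : 0 ≤ g)
    (hm : m ≤ K * (e * g ^ 2)) : √(K * T * m) ≤ K * T * e * g := by
  rw [sqrt_le_left (by positivity)]
  have h0 : 0 ≤ K * T := by positivity
  have h1 : K * T * m ≤ K * T * (K * (e * g ^ 2)) := mul_le_mul_of_nonneg_left hm h0
  have h2 : K * T * (K * (e * g ^ 2)) = (K ^ 2 * g ^ 2) * (T * e) := by ring
  have h3 : (K * T * e * g) ^ 2 = (K ^ 2 * g ^ 2) * (T ^ 2 * e ^ 2) := by ring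
  have h4 : T * e ≤ T ^ 2 * e ^ 2 := by
    have h5 : 1 ≤ T * e := one_le_mul_of_one_le_of_one_le hT he
    have h6 : T ^ 2 * e ^ 2 = (T * e) * (T * e) := by ring
    rw [h6]
    exact le_mul_of_one_le_left (by positivity) h5
  rw [h3]
  exact h1.trans (h2.trans_le (mul_le_mul_of_nonneg_left h4 (by positivity)))

/-- the weight -/
lemma weight_part {A d s dz dx : ℝ} (hA : 0 < A) (hs : 0 < s) (hs1 : s ≤ 1) (h : dz ≤ d + dx) :
    exp (A * dz) * exp (-(d ^ 2 / (4 * A * s))) ≤ exp (A * dx) * (exp (2 * A ^ 3)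
      * exp (-(d ^ 2 / (8 * A * s)))) := by
  rw [← exp_add, ← exp_add, ← exp_add, exp_le_exp]
  have h10 : A * dz ≤ A * (d + dx) := mul_le_mul_of_nonneg_left h hA.le
  have h11 : A * d ≤ 2 * A ^ 3 * s + d ^ 2 / (8 * A * s) := by
    have e3 : 2 * A ^ 3 * s + d ^ 2 / (8 * A * s) - A * d = (d - 4 * A ^ 2 * s) ^ 2 / (8 * A * s) := by
      field_simp
      ring
    have : 0 ≤ (d - 4 * A ^ 2 * s) ^ 2 / (8 * A * s) := by positivity
    linarith
  have h12 : 2 * A ^ 3 * s ≤ 2 * A ^ 3 := by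
    have : 0 ≤ 2 * A ^ 3 := by positivity
    nlinarith
  have e4 : d ^ 2 / (4 * A * s) = d ^ 2 / (8 * A * s) + d ^ 2 / (8 * A * s) := by
    field_simp
    ring
  rw [e4]
  linarith

/-- the Gaussian factor does not see a change of the point by `√s` -/
lemma gauss_part {A d s a b : ℝ} (hA : 0 < A) (hs : 0 < s) (hd : 0 ≤ d) (ha : 0 ≤ a)
    (has : a ≤ √s) (h : d ≤ a + b) :
    exp (-(b ^ 2 / (A * s))) ≤ exp (1 / A) * exp (-(d ^ 2 / (4 * A * s))) ^ 2 := by
  have e2 : exp (-(d ^ 2 / (4 * A * s))) ^ 2 = exp (-(d ^ 2 / (2 * A * s))) := by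
    rw [← exp_nat_mul]; congr 1; push_cast; field_simp; ring
  rw [e2, ← exp_add]
  refine exp_le_exp.2 ?_
  have h2 : d ^ 2 / 2 - s ≤ b ^ 2 := by
    have h3 : a ^ 2 ≤ s := by
      calc a ^ 2 ≤ √s ^ 2 := by gcongr
        _ = s := sq_sqrt hs.le
    have h6 : d ^ 2 ≤ (a + b) ^ 2 := by gcongr
    nlinarith [sq_nonneg (a - b)]
  have e1 : 1 / A + -(d ^ 2 / (2 * A * s)) = -((d ^ 2 / 2 - s) / (A * s)) := by
    field_simp
    ring
  rw [e1]
  have : (d ^ 2 / 2 - s) / (A * s) ≤ b ^ 2 / (A * s) := by gcongr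
  linarith

/-- (LIP), core: the Gaussian Lipschitz bound of the kernel, from the Gaussian upper bound and the
gradient estimate `|P_{s/2}F(x) - P_{s/2}F(y)| ≤ c √(B max) d/√s` for `F = p_{s/2}(·,z) ≤ B`. -/
theorem lip_core {X : Type*} [PseudoMetricSpace X] {p : ℝ → X → X → ℝ} {o : X} {n s1 A c : ℝ}
    (hn : 0 ≤ n) (hs11 : s1 ≤ 1) (hA : 1 ≤ A) (hc : 0 ≤ c)
    (up : ∀ s, 0 < s → s ≤ s1 → ∀ x z,
      p s x z ≤ A * exp (A * dist z o) * s ^ (-(n / 2)) * exp (-(dist x z ^ 2 / (A * s))))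
    (gra : ∀ s, 0 < s → s ≤ s1 → ∀ z B, 0 < B → (∀ x, p (s / 2) x z ≤ B) → (∀ x, p s x z ≤ B) →
      ∀ x y, |p s x z - p s y z| ≤ c * (dist x y / √s) * √(B * max (p s x z) (p s y z))) :
    ∃ A', A ≤ A' ∧ ∀ s, 0 < s → s ≤ s1 → ∀ x x' z, dist x x' ≤ √s →
      |p s x z - p s x' z| ≤ A' * exp (A' * dist x o) * (dist x x' / √s) * s ^ (-(n / 2))
        * exp (-(dist x z ^ 2 / (A' * s))) := by
  have hA0 : 0 < A := by linarith
  refine ⟨max (8 * A) (c * A * 2 ^ (n / 2) * exp (1 / A) * exp (2 * A ^ 3)),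
    le_trans (by linarith) (le_max_left _ _), ?_⟩
  intro s hs hs1' x x' z hxx
  have hs1 : s ≤ 1 := hs1'.trans hs11
  have hle8 : 8 * A ≤ max (8 * A) (c * A * 2 ^ (n / 2) * exp (1 / A) * exp (2 * A ^ 3)) :=
    le_max_left _ _
  have hleC : c * A * 2 ^ (n / 2) * exp (1 / A) * exp (2 * A ^ 3) ≤
    max (8 * A) (c * A * 2 ^ (n / 2) * exp (1 / A) * exp (2 * A ^ 3)) := le_max_right _ _
  generalize max (8 * A) (c * A * 2 ^ (n / 2) * exp (1 / A) * exp (2 * A ^ 3)) = A'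
    at hle8 hleC ⊢
  have hA'0 : 0 < A' := lt_of_lt_of_le (by positivity) hle8
  have hss : 0 < √s := sqrt_pos.2 hs
  have hS0 : 0 < s ^ (-(n / 2)) := rpow_pos_of_pos hs _
  have hE0 : 0 < exp (A * dist z o) := exp_pos _
  have h2n : (1 : ℝ) ≤ 2 ^ (n / 2) := one_le_rpow (by norm_num) (by positivity)
  have h1e : 1 ≤ exp (1 / A) := by rw [one_le_exp_iff]; positivity
  have eS : (s / 2) ^ (-(n / 2)) = s ^ (-(n / 2)) * 2 ^ (n / 2) := by
    rw [div_rpow hs.le (by norm_num), rpow_neg (by norm_num : (0 : ℝ) ≤ 2), div_inv_eq_mul]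
  have gle1 : ∀ y t, 0 < t → exp (-(dist y z ^ 2 / (A * t))) ≤ 1 := by
    intro y t ht
    rw [exp_le_one_iff, neg_nonpos]
    positivity
  have hK0 : 0 < A * exp (A * dist z o) * s ^ (-(n / 2)) := by positivity
  have hK : 0 ≤ A * exp (A * dist z o) * s ^ (-(n / 2)) := hK0.le
  have hbd : ∀ y, p (s / 2) y z ≤ A * exp (A * dist z o) * s ^ (-(n / 2)) * 2 ^ (n / 2) := by
    intro y
    refine (up (s / 2) (by positivity) (by linarith) y z).trans ?_
    rw [eS, ← mul_assoc]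
    exact mul_le_of_le_one_right (by positivity) (gle1 y _ (by positivity))
  have hle : ∀ y, p s y z ≤ A * exp (A * dist z o) * s ^ (-(n / 2)) * 2 ^ (n / 2) := by
    intro y
    refine (up s hs hs1' y z).trans ?_
    exact (mul_le_of_le_one_right hK (gle1 y _ hs)).trans (le_mul_of_one_le_right hK h2n)
  have h1 := gra s hs hs1' z _ (mul_pos hK0 (lt_of_lt_of_le one_pos h2n)) hbd hle x x'
  have hg : ∀ y, dist x y ≤ √s → p s y z ≤ A * exp (A * dist z o) * s ^ (-(n / 2))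
      * (exp (1 / A) * exp (-(dist x z ^ 2 / (4 * A * s))) ^ 2) := by
    intro y hy
    refine (up s hs hs1' y z).trans ?_
    exact mul_le_mul_of_nonneg_left (gauss_part hA0 hs dist_nonneg dist_nonneg hy
      (dist_triangle x y z)) hK
  have h2 := sqrt_part hK h2n h1e (exp_pos (-(dist x z ^ 2 / (4 * A * s)))).le
    (max_le (hg x (by rw [dist_self]; exact hss.le)) (hg x' hxx))
  have h9 : dist z o ≤ dist x z + dist x o := by
    have := dist_triangle z x o
    rwa [dist_comm z x] at this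
  have h8 := weight_part hA0 hs hs1 h9
  have h13 : exp (-(dist x z ^ 2 / (8 * A * s))) ≤ exp (-(dist x z ^ 2 / (A' * s))) := by
    apply exp_le_exp.2
    have h14 : dist x z ^ 2 / (A' * s) ≤ dist x z ^ 2 / (8 * A * s) := by gcongr
    linarith
  have h15 : exp (A * dist x o) ≤ exp (A' * dist x o) := by
    apply exp_le_exp.2
    exact mul_le_mul_of_nonneg_right (le_trans (by linarith) hle8) dist_nonneg
  have h20 : 0 ≤ exp (-(dist x z ^ 2 / (8 * A * s))) := (exp_pos _).le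
  generalize exp (-(dist x z ^ 2 / (4 * A * s))) = g4 at h2 h8
  generalize exp (-(dist x z ^ 2 / (8 * A * s))) = g8 at h8 h13 h20
  generalize s ^ (-(n / 2)) = S at *
  generalize exp (A * dist z o) = E at *
  generalize (2 : ℝ) ^ (n / 2) = T at *
  generalize exp (1 / A) = e at *
  have hδ : 0 ≤ c * (dist x x' / √s) := by positivity
  have h16 := h1.trans (mul_le_mul_of_nonneg_left h2 hδ)
  have h17 : c * (dist x x' / √s) * (A * E * S * T * e * g4) =
      (c * A * T * e) * (dist x x' / √s) * S * (E * g4) := by ring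
  have h0' : 0 ≤ (c * A * T * e) * (dist x x' / √s) * S := by
    have : 0 ≤ T := by linarith
    have : 0 ≤ e := by linarith
    positivity
  have h18 := h17.trans_le (mul_le_mul_of_nonneg_left h8 h0')
  refine h16.trans (h18.trans ?_)
  have h19 : (c * A * T * e) * (dist x x' / √s) * S * (exp (A * dist x o) * (exp (2 * A ^ 3) * g8))
      = (c * A * T * e * exp (2 * A ^ 3)) * exp (A * dist x o) * (dist x x' / √s) * S * g8 := by
    ring
  rw [h19]
  gcongr

/-- (LIP): the Gaussian Lipschitz bound of the kernel, from the Gaussian upper bound and Hamilton's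
estimate between times `s/2` and `s`. -/
theorem lip_of_ham {X : Type*} [PseudoMetricSpace X] {p : ℝ → X → X → ℝ} {o : X} {n s1 A c : ℝ}
    (hn : 0 ≤ n) (hs11 : s1 ≤ 1) (hA : 1 ≤ A) (hc : 0 ≤ c)
    (pos : ∀ s, 0 < s → s ≤ s1 → ∀ x z, 0 < p s x z)
    (up : ∀ s, 0 < s → s ≤ s1 → ∀ x z,
      p s x z ≤ A * exp (A * dist z o) * s ^ (-(n / 2)) * exp (-(dist x z ^ 2 / (A * s))))
    (ham : ∀ s, 0 < s → s ≤ s1 → ∀ z B, (∀ x, p (s / 2) x z ≤ B) → ∀ x y,
      |√(log (B / p s x z)) - √(log (B / p s y z))| ≤ c * dist x y / √s) :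
    ∃ A', A ≤ A' ∧ ∀ s, 0 < s → s ≤ s1 → ∀ x x' z, dist x x' ≤ √s →
      |p s x z - p s x' z| ≤ A' * exp (A' * dist x o) * (dist x x' / √s) * s ^ (-(n / 2))
        * exp (-(dist x z ^ 2 / (A' * s))) := by
  refine lip_core (c := 2 * c) hn hs11 hA (by positivity) up ?_
  intro s hs hs1 z B _ h2 h3 x y
  have h := sub_le_of_sqrt_log (pos s hs hs1 x z) (pos s hs hs1 y z) (h3 x) (h3 y)
    (ham s hs hs1 z B h2 x y)
  refine h.trans (le_of_eq ?_)
  ring

end Vale.Agent.P242.H881
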