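import Vale.Agent.P242.H520.KerDefs
import Vale.Agent.P242.H881.Lip

/-! P242, F-GRAD: the field `lip` of helper990's structure `KB` from helper520's `Ker0` and `upper`. -/

set_option linter.all false

open MeasureTheory Filter Topology Set Real

universe u

namespace Vale.Agent.P242.H881

open Vale.Agent.P242.H520

variable {M : Type u} [MetricSpace M] [MeasurableSpace M]

/-- (LIP) for the heat kernel: the field `KB.lip`. -/
theorem lip_of_ker0 {m : Measure M} {p : ℝ → M → M → ℝ} (h : Ker0 m p) {n : ℕ} {o : M} {A : ℝ}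
    (hA : 1 ≤ A)
    (upper : ∀ s, 0 < s → s ≤ 1 / 2 → ∀ x z,
      p s x z ≤ A * exp (A * dist x o) * (√s ^ n)⁻¹ * exp (-(dist x z ^ 2 / (A * s)))) :
    ∃ A', A ≤ A' ∧ ∀ s, 0 < s → s ≤ 1 / 2 → ∀ x x' z, dist x x' ≤ √s →
      |p s x z - p s x' z| ≤ A' * exp (A' * dist x o) * (dist x x' / √s) * (√s ^ n)⁻¹ *
        exp (-(dist x z ^ 2 / (A' * s))) := by
  obtain ⟨C, hC, hgra⟩ := h.gra (1 / 2) (by norm_num) (by norm_num)
  have eS : ∀ s, 0 < s → s ≤ 1 / 2 → s ^ (-((n : ℝ) / 2)) = (√s ^ n)⁻¹ := by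
    intro s hs _
    rw [rpow_neg hs.le, sqrt_eq_rpow, ← rpow_natCast, ← rpow_mul hs.le]
    congr 2
    ring
  have key := lip_core (X := M) (p := p) (o := o) (n := n) (s1 := 1 / 2) (A := A) (c := C * √2)
    (by positivity) (by norm_num) hA (by positivity) ?_ ?_
  · obtain ⟨A', h1, h2⟩ := key
    refine ⟨A', h1, fun s hs hs1 x x' z hx => ?_⟩
    rw [← eS s hs hs1]
    exact h2 s hs hs1 x x' z hx
  · intro s hs hs1 x z
    rw [h.symm s hs, eS s hs hs1, dist_comm x z]
    exact upper s hs hs1 z x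
  · intro s hs hs1 z B hB h1 _ x y
    have hs2 : 0 < s / 2 := by positivity
    have e : ∀ x, pt m p (s / 2) (fun w => p (s / 2) w z) x = p s x z := by
      intro x
      have := h.semi (s / 2) (s / 2) hs2 hs2 x z
      rw [add_halves] at this
      exact this.symm
    have e' : ∀ w, p (s / 2) w z = p (s / 2) z w := fun w => h.symm _ hs2 w z
    have hmeas : AEStronglyMeasurable (fun w => p (s / 2) w z) m := by
      have := (h.mem2 (s / 2) hs2 z).aestronglyMeasurable
      refine this.congr (ae_of_all _ fun w => ?_)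
      exact (e' w).symm
    have hg := hgra (s / 2) hs2 (by linarith) B (fun w => p (s / 2) w z) hB hmeas
      (ae_of_all _ fun w => ⟨h.nonneg _ hs2 w z, h1 w⟩) x y
    rw [e x, e y] at hg
    refine hg.trans (le_of_eq ?_)
    have e5 : (1 : ℝ) - 1 / 2 = 1 / 2 := by norm_num
    have hm : 0 ≤ max (p s x z) (p s y z) := le_max_of_le_left (h.nonneg _ hs _ _)
    rw [sqrt_mul hB.le, sqrt_eq_rpow B, sqrt_eq_rpow (max _ _)]
    have e3 : √(s / 2) = √s / √2 := sqrt_div hs.le _
    rw [e3, e5]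
    have h2 : √2 ≠ 0 := by positivity
    have h3 : √s ≠ 0 := (sqrt_pos.2 hs).ne'
    field_simp

end Vale.Agent.P242.H881
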