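import Vale.Agent.P242.H990.Gauss
import Vale.Agent.P242.H881.LipK

/-! P242: the structure `KB` (helper990) from `Ker0` (helper520), the upper bound (helper751) and the
lower bound (helper266). -/

set_option linter.all false

open MeasureTheory Filter Topology Set Real

universe u

namespace Vale.Agent.P242.H881

open Vale.Agent.P242.H520 Vale.Agent.P242.H990

variable {M : Type u} [MetricSpace M] [MeasurableSpace M]

/-- the upper Gaussian bound is monotone in the constant -/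
lemma upper_mono {A A' a d s S : ℝ} (hA : 1 ≤ A) (h : A ≤ A') (ha : 0 ≤ a) (hS : 0 ≤ S)
    (hs : 0 < s) :
    A * exp (A * a) * S * exp (-(d ^ 2 / (A * s))) ≤
      A' * exp (A' * a) * S * exp (-(d ^ 2 / (A' * s))) := by
  have hA0 : 0 < A := by linarith
  have hA'0 : 0 < A' := hA0.trans_le h
  have h1 : d ^ 2 / (A' * s) ≤ d ^ 2 / (A * s) := by gcongr
  have h2 : exp (-(d ^ 2 / (A * s))) ≤ exp (-(d ^ 2 / (A' * s))) := exp_le_exp.2 (by linarith)
  have h3 : exp (A * a) ≤ exp (A' * a) := exp_le_exp.2 (mul_le_mul_of_nonneg_right h ha)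
  gcongr

/-- `KB` from its parts -/
theorem KB_mk {m : Measure M} {p : ℝ → M → M → ℝ} (h : Ker0 m p) {n : ℕ} {o : M} {A₀ A : ℝ}
    (hA : 1 ≤ A)
    (upper : ∀ s, 0 < s → s ≤ 1 / 2 → ∀ x z,
      p s x z ≤ A * exp (A * dist x o) * (√s ^ n)⁻¹ * exp (-(dist x z ^ 2 / (A * s))))
    (lower : ∀ A, A₀ ≤ A → ∀ s, 0 < s → s ≤ 1 / 2 → ∀ x z,
      A⁻¹ * exp (-(A * dist x o)) * (√s ^ n)⁻¹ * exp (-(A * dist x z ^ 2 / s)) ≤ p s x z) :
    ∃ A', A ≤ A' ∧ A₀ ≤ A' ∧ KB n o A' p := by
  obtain ⟨A1, h1, hlip⟩ := lip_of_ker0 h hA upper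
  have hA1 : 1 ≤ A1 := hA.trans h1
  refine ⟨max A1 A₀, h1.trans (le_max_left _ _), le_max_right _ _, ?_⟩
  refine ⟨hA1.trans (le_max_left _ _), ?_, lower _ (le_max_right _ _), ?_⟩
  · intro s hs hs1 x z
    exact (upper s hs hs1 x z).trans
      (upper_mono hA (h1.trans (le_max_left _ _)) dist_nonneg (by positivity) hs)
  · intro s hs hs1 x x' z hx
    refine (hlip s hs hs1 x x' z hx).trans ?_
    have h2 := upper_mono (a := dist x o) (d := dist x z) (S := dist x x' / √s * (√s ^ n)⁻¹)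
      hA1 (le_max_left A1 A₀) dist_nonneg (by positivity) hs
    simpa only [mul_assoc, mul_left_comm, mul_comm] using h2

end Vale.Agent.P242.H881
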